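import Vale.Agent.P329.S4

/-! Every language recognised by a finite group in the variety generated by the symmetric group
of degree four has generalized star height at most one. -/

namespace Vale.Agent.Results.P329.SymFour

open Vale.Agent.P329

/-- words multiplied in the symmetric group of degree four -/
theorem good_s4 {A : Type} [Finite A] (φ : A → Equiv.Perm (Fin 4)) :
    Good (fun w : List A => (w.map φ).prod) := by
  classical
  have e : Fin 4 ≃ V := Fintype.equivOfCardEq (by simp)
  have g := (good_perm fun a => e.permCongr (φ a)⁻¹).map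
    (fun g : V → V => fun i : Fin 4 => e.symm (g (e i)))
  have key : ∀ (w : List A) (i : Fin 4),
      e.symm (run (fun a z => e.permCongr (φ a)⁻¹ z) w (e i)) = ((w.map φ).prod)⁻¹ i := by
    intro w
    induction w with
    | nil => intro i; simp [run_nil]
    | cons a w ih =>
      intro i
      rw [run_cons, List.map_cons, List.prod_cons, mul_inv_rev]
      have h1 : e.permCongr (φ a)⁻¹ (e i) = e ((φ a)⁻¹ i) := by
        simp [Equiv.permCongr_apply]
      rw [h1, ih, Equiv.Perm.mul_apply]
  have g2 : Good (fun w : List A => fun i : Fin 4 => ((w.map φ).prod)⁻¹ i) := by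
    convert g using 1
    funext w i
    exact (key w i).symm
  have g3 := g2.map (fun f : Fin 4 → Fin 4 =>
    if h : Function.Bijective f then (Equiv.ofBijective f h)⁻¹ else 1)
  convert g3 using 1
  funext w
  have hb : Function.Bijective fun i : Fin 4 => ((w.map φ).prod)⁻¹ i :=
    ((w.map φ).prod)⁻¹.bijective
  rw [dif_pos hb]
  have : Equiv.ofBijective (fun i : Fin 4 => ((w.map φ).prod)⁻¹ i) hb = ((w.map φ).prod)⁻¹ := by
    ext i
    rfl
  rw [this, inv_inv]

/-- If the finite group `G` is a quotient of a subgroup of a finite power of the symmetric group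
`S_4`, then every language over a finite alphabet recognised by `G` is denoted by a generalized
regular expression of star height at most one. -/
theorem result (A : Type) [Finite A] (G : Type) [Group G]
    (k : ℕ) (K : Subgroup (Fin k → Equiv.Perm (Fin 4))) (π : K →* G)
    (hπ : Function.Surjective π) (φ : A → G) (L : Set (List A))
    (hL : ∀ u v : List A, (u.map φ).prod = (v.map φ).prod → (u ∈ L ↔ v ∈ L)) :
    ∃ E : GExp A, E.height ≤ 1 ∧ E.lang = L := by
  classical
  choose s hs using hπ
  let ψ : A → K := fun a => s (φ a)
  have h1 : ∀ w : List A, π ((w.map ψ).prod) = (w.map φ).prod := by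
    intro w
    induction w with
    | nil => simp
    | cons a w ih =>
      simp only [List.map_cons, List.prod_cons, map_mul, ih]
      rw [show π (ψ a) = φ a from hs (φ a)]
  have h2 : ∀ (w : List A) (j : Fin k),
      ((w.map ψ).prod : Fin k → Equiv.Perm (Fin 4)) j =
        (w.map fun a => (ψ a : Fin k → Equiv.Perm (Fin 4)) j).prod := by
    intro w j
    induction w with
    | nil => rfl
    | cons a w ih =>
      simp only [List.map_cons, List.prod_cons, Subgroup.coe_mul, Pi.mul_apply, ih]
  have g : Good (fun w : List A => fun j : Fin k =>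
      (w.map fun a => (ψ a : Fin k → Equiv.Perm (Fin 4)) j).prod) :=
    Good.pi (F := fun (j : Fin k) (w : List A) =>
      (w.map fun a => (ψ a : Fin k → Equiv.Perm (Fin 4)) j).prod) fun j => good_s4 _
  have g2 := g.map (fun x : Fin k → Equiv.Perm (Fin 4) =>
    (if hx : x ∈ K then ∃ v ∈ L, π ⟨x, hx⟩ = (v.map φ).prod else False : Prop))
  have h3 := g2 True
  have e : {w : List A | (fun x : Fin k → Equiv.Perm (Fin 4) =>
      (if hx : x ∈ K then ∃ v ∈ L, π ⟨x, hx⟩ = (v.map φ).prod else False : Prop))
      (fun j : Fin k => (w.map fun a => (ψ a : Fin k → Equiv.Perm (Fin 4)) j).prod) = True} = L := by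
    ext w
    have h4 : (fun j : Fin k => (w.map fun a => (ψ a : Fin k → Equiv.Perm (Fin 4)) j).prod) =
        ((w.map ψ).prod : Fin k → Equiv.Perm (Fin 4)) := by
      funext j
      exact (h2 w j).symm
    simp only [Set.mem_ofPred_eq, eq_iff_iff, iff_true]
    rw [h4, dif_pos ((w.map ψ).prod).2]
    constructor
    · rintro ⟨v, hv, h5⟩
      have h6 : π ((w.map ψ).prod) = (v.map φ).prod := h5
      rw [h1] at h6
      exact (hL w v h6).mpr hv
    · intro hw
      exact ⟨w, hw, h1 w⟩
  rw [e] at h3
  exact h3

end Vale.Agent.Results.P329.SymFour
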