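import Vale.Agent.P329.Cls

/-! Languages recognised by the groups of the class `Cls`. -/

namespace Vale.Agent.Results.P329.AbelByElem

open Vale.Agent.P329

/-- Let `G` be a group of the class `Cls`: the smallest class closed under direct products,
subgroups and quotients which contains all finite extensions of abelian groups by elementary
abelian `p`-groups (all primes `p`), all finite nilpotent groups of class at most three and the
symmetric group `S_4`.  Then every language over a finite alphabet recognised by `G` is denoted by a
generalized regular expression of star height at most one. -/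
theorem result (A : Type) [Finite A] (G : Type) [Group G] (hG : Cls G) (φ : A → G)
    (L : Set (List A))
    (hL : ∀ u v : List A, (u.map φ).prod = (v.map φ).prod → (u ∈ L ↔ v ∈ L)) :
    ∃ E : GExp A, E.height ≤ 1 ∧ E.lang = L := by
  obtain ⟨hfin, hgood⟩ := hG.good
  have h3 := (hgood A φ).map (fun x : G => (∃ v ∈ L, x = (v.map φ).prod : Prop)) True
  have e : {w : List A | (fun x : G => (∃ v ∈ L, x = (v.map φ).prod : Prop))
      ((w.map φ).prod) = True} = L := by
    ext w
    simp only [Set.mem_ofPred_eq, eq_iff_iff, iff_true]
    constructor
    · rintro ⟨v, hv, h5⟩
      exact (hL w v h5).mpr hv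
    · intro hw
      exact ⟨w, hw, rfl⟩
  rw [e] at h3
  exact h3

end Vale.Agent.Results.P329.AbelByElem
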