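import Vale.Agent.P329.Nil3
import Vale.Agent.Results.P329.SymFour

/-! Languages recognised by finite groups in the variety generated by the nilpotent groups of class
at most three and the symmetric group of degree four. -/

namespace Vale.Agent.Results.P329.NilThree

open Vale.Agent.P329

/-- Let `N` be a finite nilpotent group of class at most three.  If the group `G` is a quotient of
a subgroup of the direct product of `N` and of finitely many copies of the symmetric group `S_4`
(for instance `G = N`), then every language over a finite alphabet recognised by `G` is denoted by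
a generalized regular expression of star height at most one. -/
theorem result (A : Type) [Finite A] (G : Type) [Group G]
    (N : Type) [Group N] [Finite N] [Group.IsNilpotent N] (hN : Group.nilpotencyClass N ≤ 3)
    (k : ℕ) (K : Subgroup (N × (Fin k → Equiv.Perm (Fin 4)))) (π : K →* G)
    (hπ : Function.Surjective π) (φ : A → G) (L : Set (List A))
    (hL : ∀ u v : List A, (u.map φ).prod = (v.map φ).prod → (u ∈ L ↔ v ∈ L)) :
    ∃ E : GExp A, E.height ≤ 1 ∧ E.lang = L := by
  classical
  choose s hs using hπ
  let ψ : A → K := fun a => s (φ a)
  have h1 : ∀ w : List A, π ((w.map ψ).prod) = (w.map φ).prod := by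
    intro w
    induction w with
    | nil => simp
    | cons a w ih =>
      simp only [List.map_cons, List.prod_cons, map_mul, ih]
      rw [show π (ψ a) = φ a from hs (φ a)]
  have h2 : ∀ w : List A, ((w.map ψ).prod : N × (Fin k → Equiv.Perm (Fin 4))) =
      ((w.map fun a => (ψ a : N × (Fin k → Equiv.Perm (Fin 4))).1).prod,
        fun j => (w.map fun a => (ψ a : N × (Fin k → Equiv.Perm (Fin 4))).2 j).prod) := by
    intro w
    induction w with
    | nil => rfl
    | cons a w ih =>
      simp only [List.map_cons, List.prod_cons, Subgroup.coe_mul, ih]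
      rfl
  have g : Good (fun w : List A => ((w.map ψ).prod : N × (Fin k → Equiv.Perm (Fin 4)))) := by
    have g1 : Good (fun w : List A =>
        (w.map fun a => (ψ a : N × (Fin k → Equiv.Perm (Fin 4))).1).prod) := good_nil3 hN _
    have g2 : Good (fun w : List A => fun j : Fin k =>
        (w.map fun a => (ψ a : N × (Fin k → Equiv.Perm (Fin 4))).2 j).prod) :=
      Good.pi (F := fun (j : Fin k) (w : List A) =>
        (w.map fun a => (ψ a : N × (Fin k → Equiv.Perm (Fin 4))).2 j).prod)
        fun j => SymFour.good_s4 _
    have g3 := g1.prod g2
    convert g3 using 1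
    funext w
    exact h2 w
  have g2 := g.map (fun x : N × (Fin k → Equiv.Perm (Fin 4)) =>
    (if hx : x ∈ K then ∃ v ∈ L, π ⟨x, hx⟩ = (v.map φ).prod else False : Prop))
  have h3 := g2 True
  have e : {w : List A | (fun x : N × (Fin k → Equiv.Perm (Fin 4)) =>
      (if hx : x ∈ K then ∃ v ∈ L, π ⟨x, hx⟩ = (v.map φ).prod else False : Prop))
      ((w.map ψ).prod : N × (Fin k → Equiv.Perm (Fin 4))) = True} = L := by
    ext w
    simp only [Set.mem_ofPred_eq, eq_iff_iff, iff_true]
    rw [dif_pos ((w.map ψ).prod).2]
    constructor
    · rintro ⟨v, hv, h5⟩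
      have h6 : π ((w.map ψ).prod) = (v.map φ).prod := h5
      rw [h1] at h6
      exact (hL w v h6).mpr hv
    · intro hw
      exact ⟨w, hw, h1 w⟩
  rw [e] at h3
  exact h3

end Vale.Agent.Results.P329.NilThree
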